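import Mathlib
import Vale.Agent.Lib.P170.W.Thr

open Vale.Agent.Lib.P170

/-- The satisfiability threshold conjecture for random `k`-SAT with proper clauses: for every `k ≥ 3`
there is a limiting threshold `α ∈ (0, ∞)`. -/
theorem Vale.Agent.Results.P170.A0_threshold.result (k : ℕ) (hk : 3 ≤ k) :
    ∃ α : ℝ, 0 < α ∧
      (∀ c : ℝ, 0 ≤ c → c < α →
        Filter.Tendsto (fun n : ℕ => satProb k n ⌊c * (n : ℝ)⌋₊) Filter.atTop (nhds 1)) ∧
      (∀ c : ℝ, α < c →
        Filter.Tendsto (fun n : ℕ => satProb k n ⌊c * (n : ℝ)⌋₊) Filter.atTop (nhds 0)) :=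
  threshold_exists hk
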