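import Mathlib
import Vale.Agent.Lib.P170.Main

open Vale.Agent.Lib.P170

/-- Approximate supermultiplicativity of the satisfiability probability of random `k`-SAT and
consequences for every threshold sequence of Friedgut's theorem. -/
theorem Vale.Agent.Results.P170.A_supermult.result (k : ℕ) (hk : 2 ≤ k) :
    (∀ C ε δ : ℝ, 0 < C → 0 < ε → 0 < δ →
      ∃ N : ℕ, ∀ c : ℝ, 0 ≤ c → c ≤ C → ∀ n₁ n₂ : ℕ, N ≤ n₁ → N ≤ n₂ →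
        (1 - δ) * (satProb k n₁ ⌊(c + ε) * n₁⌋₊ * satProb k n₂ ⌊(c + ε) * n₂⌋₊) ≤
          satProb k (n₁ + n₂) ⌊c * ((n₁ + n₂ : ℕ) : ℝ)⌋₊) ∧
    (∀ r : ℕ → ℝ, IsThresholdSeq k r → ∀ ε : ℝ, 0 < ε →
      (∃ N : ℕ, ∀ n₁ n₂ : ℕ, N ≤ n₁ → N ≤ n₂ → min (r n₁) (r n₂) - ε ≤ r (n₁ + n₂)) ∧
      (∀ j : ℕ, 1 ≤ j → ∃ N : ℕ, ∀ n : ℕ, N ≤ n → r n - ε ≤ r (j * n)) ∧
      (∃ θ : ℝ, 0 < θ ∧ ∃ N : ℕ, ∀ n L : ℕ, N ≤ n → (L : ℝ) ≤ θ * n → r (n + L) ≤ r n + ε) ∧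
      (∃ θ : ℝ, 0 < θ ∧ ∃ N : ℕ, ∀ n L : ℕ, N ≤ n → (L : ℝ) ^ k ≤ θ * (n : ℝ) ^ (k - 1) →
        |r (n + L) - r n| ≤ ε)) := by
  refine ⟨fun C ε δ hC hε hδ => supermult hk hC hε hδ, ?_⟩
  intro r hr ε hε
  exact ⟨threshold_additive hk hr hε, fun j hj => threshold_multiples hk hr hε j hj,
    threshold_upper hk hr hε, threshold_slowvar hk hr hε⟩
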