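import Mathlib
import Vale.Agent.Lib.P170.W.Thr

open Vale.Agent.Lib.P170

/-- The satisfiability transition of random `k`-SAT with proper clauses has a window of width
`O(√n)` clauses for every `k ≥ 3`, around the centre `μ n`. -/
theorem Vale.Agent.Results.P170.B_window.result (k : ℕ) (hk : 3 ≤ k) :
    ∃ (K : ℝ) (N : ℕ), 0 < K ∧ ∀ n : ℕ, N ≤ n → ∃ μ : ℝ, ∀ x : ℝ, 0 < x → x ≤ n →
      x ^ 2 * (1 - satProb k n ⌊μ - x⌋₊) ≤ K * (n : ℝ) ∧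
      x ^ 2 * satProb k n ⌈μ + x⌉₊ ≤ K * (n : ℝ) := by
  obtain ⟨j, rfl⟩ : ∃ j, k = j + 1 := ⟨k - 1, by omega⟩
  obtain ⟨K, N, hK, h⟩ := aN_cheb (j := j) (by omega)
  exact ⟨K, N, hK, fun n hn => ⟨aN (j + 1) n * (n : ℝ), fun x hx hxn => h n hn x hx hxn⟩⟩
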